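import Mathlib
import Crest.Prelude.Def_TwoAdicShift

/-! Row 113, S0148 from S0150: transport to an arbitrary separable Hilbert space. -/

set_option autoImplicit false
open Filter Topology MeasureTheory
open Crest.AnalysisR.TwoAdic
attribute [local instance] Crest.AnalysisR.TwoAdic.borelTwoAdic Crest.AnalysisR.TwoAdic.borelSpace_twoAdic

namespace Crest.Agent.R113b

/-- the conclusion of S0148 for one space -/
def Good (H : Type*) [NormedAddCommGroup H] [InnerProductSpace ℂ H] : Prop :=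
  ∃ T : H →L[ℂ] H, T ≠ 0 ∧
    Tendsto (fun n : ℕ => ‖T ^ n‖ ^ (1 / (n : ℝ))) atTop (nhds 0) ∧
    ∀ V : Submodule ℂ H, IsClosed (V : Set H) →
      (∀ A : H →L[ℂ] H, A * T = T * A → ∀ v ∈ V, A v ∈ V) → V = ⊥ ∨ V = ⊤

theorem exists_basis (H : Type*) [NormedAddCommGroup H] [InnerProductSpace ℂ H] [CompleteSpace H]
    [TopologicalSpace.SeparableSpace H] (hH : ¬ FiniteDimensional ℂ H) :
    Nonempty (HilbertBasis ℕ ℂ H) := by
  classical
  obtain ⟨w, b, -⟩ := exists_hilbertBasis ℂ H
  have hc : Countable w := by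
    refine Pairwise.countable_of_isOpen_disjoint (s := fun i : w => Metric.ball (b i) (1 / 2))
      (fun i j hij => ?_) (fun i => Metric.isOpen_ball) (fun i => Metric.nonempty_ball.2 (by norm_num))
    refine Metric.ball_disjoint_ball ?_
    have h1 : ‖b i - b j‖ ^ 2 = 2 := by
      rw [@norm_sub_sq ℂ, b.orthonormal.1 i, b.orthonormal.1 j, b.orthonormal.2 hij]
      norm_num
    rw [dist_eq_norm]
    nlinarith [norm_nonneg (b i - b j)]
  have hi : Infinite w := by
    by_contra h
    rw [not_infinite_iff_finite] at h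
    have := Fintype.ofFinite w
    exact hH (Module.Finite.of_basis b.toOrthonormalBasis.toBasis)
  obtain ⟨e⟩ : Nonempty (ℕ ≃ w) := nonempty_equiv_of_countable
  refine ⟨HilbertBasis.mk (b.orthonormal.comp e e.injective) ?_⟩
  rw [e.surjective.range_comp, b.dense_span]

theorem Good.transport {H K : Type*} [NormedAddCommGroup H] [InnerProductSpace ℂ H]
    [NormedAddCommGroup K] [InnerProductSpace ℂ K] (U : H ≃ₗᵢ[ℂ] K) (h : Good K) : Good H := by
  obtain ⟨S, h0, h1, h2⟩ := h
  let Φ : (K →L[ℂ] K) → (H →L[ℂ] H) := fun A =>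
    (U.symm.toContinuousLinearEquiv : K →L[ℂ] H) ∘L A ∘L (U.toContinuousLinearEquiv : H →L[ℂ] K)
  have hΦ : ∀ A x, Φ A x = U.symm (A (U x)) := fun A x => rfl
  have hmul : ∀ A B, Φ (A * B) = Φ A * Φ B := by
    intro A B
    ext x
    simp [hΦ]
  have hpow : ∀ n : ℕ, Φ S ^ n = Φ (S ^ n) := by
    intro n
    induction n with
    | zero => ext x; simp [hΦ]
    | succ n ih => rw [pow_succ, pow_succ, hmul, ih]
  have hn : ∀ A, ‖Φ A‖ ≤ ‖A‖ := by
    intro A
    refine ContinuousLinearMap.opNorm_le_bound _ (norm_nonneg _) fun x => ?_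
    rw [hΦ, U.symm.norm_map, ← U.norm_map x]
    exact A.le_opNorm _
  refine ⟨Φ S, fun e => h0 ?_, ?_, fun V hV hA => ?_⟩
  · ext y
    have := hΦ S (U.symm y)
    rw [e] at this
    simpa using this.symm
  · refine squeeze_zero (fun n => by positivity) (fun n => ?_) h1
    rw [hpow]
    exact Real.rpow_le_rpow (norm_nonneg _) (hn _) (by positivity)
  · have hW := h2 (V.comap U.symm.toLinearEquiv.toLinearMap) (hV.preimage U.symm.continuous)
      (fun A hAS v hv => by
        have := hA (Φ A) (by rw [← hmul, ← hmul, hAS]) (U.symm v) hv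
        simpa [hΦ] using this)
    rcases hW with hW | hW
    · left
      rw [eq_bot_iff]
      intro v hv
      have : U v ∈ V.comap U.symm.toLinearEquiv.toLinearMap := by simpa using hv
      rw [hW] at this
      simpa using this
    · right
      rw [eq_top_iff]
      intro v _
      have : U v ∈ V.comap U.symm.toLinearEquiv.toLinearMap := by rw [hW]; trivial
      simpa using this

instance prob : IsProbabilityMeasure haarTwoAdic :=
  ⟨by
    have := Measure.addHaarMeasure_self (K₀ := (⊤ : TopologicalSpace.PositiveCompacts ℤ_[2]))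
    simpa [haarTwoAdic] using this⟩

instance sep_seq : TopologicalSpace.SeparableSpace seqHilbert := by
  let b : HilbertBasis ℤ ℂ seqHilbert := default
  rw [← TopologicalSpace.isSeparable_univ_iff]
  have h1 := ((Set.countable_range b).isSeparable.span (R := ℂ)).closure
  have h2 := congrArg (fun W : Submodule ℂ seqHilbert => (W : Set seqHilbert)) b.dense_span
  simp only [Submodule.topologicalClosure_coe, Submodule.top_coe] at h2
  rwa [h2] at h1

instance sep_fib : TopologicalSpace.SeparableSpace fibreSpace := by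
  have : Fact ((2 : ENNReal) ≠ ⊤) := ⟨by norm_num⟩
  infer_instance

theorem inf_fib : ¬ FiniteDimensional ℂ fibreSpace := by
  intro h
  let b : HilbertBasis ℤ ℂ seqHilbert := default
  have h1 := b.orthonormal.linearIndependent.map' (Lp.constₗ 2 haarTwoAdic ℂ) (by
    rw [LinearMap.ker_eq_bot']
    intro c hc
    have := Lp.norm_const' (μ := haarTwoAdic) (p := 2) (c := c) (by norm_num) (by norm_num)
    have e : Lp.const 2 haarTwoAdic c = 0 := hc
    rw [e] at this
    simpa using this.symm)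
  exact Module.Finite.not_linearIndependent_of_infinite _ h1

theorem exists_mul (g : ℤ_[2] → ℂ) (hg : Measurable g) (C : ℝ) (hC : ∀ x, ‖g x‖ ≤ C) :
    ∃ M : fibreSpace →L[ℂ] fibreSpace, ∀ f : fibreSpace, ∀ᵐ x ∂haarTwoAdic,
      (M f : ℤ_[2] → seqHilbert) x = g x • (f : ℤ_[2] → seqHilbert) x := by
  have hm : MemLp g ⊤ haarTwoAdic :=
    memLp_top_of_bound hg.aestronglyMeasurable C (Eventually.of_forall hC)
  refine ⟨(ContinuousLinearMap.lsmul ℂ ℂ : ℂ →L[ℂ] seqHilbert →L[ℂ] seqHilbert).holderL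
    haarTwoAdic ⊤ 2 2 hm.toLp, fun f => ?_⟩
  have h1 := ContinuousLinearMap.coeFn_holder
    (ContinuousLinearMap.lsmul ℂ ℂ : ℂ →L[ℂ] seqHilbert →L[ℂ] seqHilbert) (r := 2) hm.toLp f
  filter_upwards [h1, hm.coeFn_toLp] with x hx hx'
  rw [ContinuousLinearMap.holderL_apply_apply, hx, hx']
  rfl

theorem good_fib (Sfib : ℤ_[2] → (seqHilbert →L[ℂ] seqHilbert)) (S V : fibreSpace →L[ℂ] fibreSpace)
    (hS : ∀ f : fibreSpace, ∀ᵐ x ∂haarTwoAdic,
      (S f : ℤ_[2] → seqHilbert) x = Sfib x ((f : ℤ_[2] → seqHilbert) x))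
    (h0 : S ≠ 0)
    (hn : ∀ n : ℕ, 1 ≤ n → ‖S ^ n‖ ≤ Real.exp (-10 * (((n + 1) ^ 2 / 4 : ℕ) : ℝ)))
    (hV : V * S = S * V)
    (ht : ∀ W : Submodule ℂ fibreSpace, IsClosed (W : Set fibreSpace) →
        (∀ f ∈ W, S f ∈ W) → (∀ f ∈ W, V f ∈ W) →
        (∀ g : ℤ_[2] → ℂ, Measurable g → (∃ C : ℝ, ∀ x, ‖g x‖ ≤ C) →
          ∀ f ∈ W, ∀ f' : fibreSpace,
            (∀ᵐ x ∂haarTwoAdic, (f' : ℤ_[2] → seqHilbert) x = g x • (f : ℤ_[2] → seqHilbert) x) → f' ∈ W) →
        W = ⊥ ∨ W = ⊤) : Good fibreSpace := by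
  refine ⟨S, h0, ?_, fun W hW hA => ht W hW (hA S rfl) (hA V hV) ?_⟩
  · refine squeeze_zero' (Eventually.of_forall fun n => by positivity) ?_
      (Real.tendsto_exp_neg_atTop_nhds_zero.comp tendsto_natCast_atTop_atTop)
    filter_upwards [eventually_ge_atTop 1] with n h1
    have h2 : n * n ≤ 10 * ((n + 1) ^ 2 / 4) := by
      have : (n + 1) ^ 2 = n * n + 2 * n + 1 := by ring
      omega
    have h3 : (n : ℝ) * n ≤ 10 * (((n + 1) ^ 2 / 4 : ℕ) : ℝ) := by exact_mod_cast h2
    have h4 : ‖S ^ n‖ ≤ Real.exp (-n) ^ n := by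
      refine (hn n h1).trans ?_
      rw [← Real.exp_nat_mul]
      exact Real.exp_le_exp.2 (by linarith)
    refine (Real.rpow_le_rpow (norm_nonneg _) h4 (by positivity)).trans (le_of_eq ?_)
    rw [one_div, Real.pow_rpow_inv_natCast (Real.exp_pos _).le (by omega)]
    rfl
  · rintro g hg ⟨C, hC⟩ f hf f' hf'
    obtain ⟨M, hM⟩ := exists_mul g hg C hC
    have h1 : M * S = S * M := by
      ext1 u
      refine Lp.ext ?_
      filter_upwards [hM (S u), hS u, hS (M u), hM u] with x a1 a2 a3 a4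
      rw [mul_apply_eq_comp, mul_apply_eq_comp, a1, a2, a3, a4, map_smul]
    have h2 : f' = M f := by
      refine Lp.ext ?_
      filter_upwards [hf', hM f] with x a1 a2
      rw [a1, a2]
    rw [h2]
    exact hA M h1 f hf

theorem good_of_fib (h : Good fibreSpace) (H : Type*) [NormedAddCommGroup H]
    [InnerProductSpace ℂ H] [CompleteSpace H] [TopologicalSpace.SeparableSpace H]
    (hH : ¬ FiniteDimensional ℂ H) : Good H := by
  obtain ⟨b1⟩ := exists_basis H hH
  obtain ⟨b2⟩ := exists_basis fibreSpace inf_fib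
  exact h.transport (b1.repr.trans b2.repr.symm)

end Crest.Agent.R113b
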